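import Vale.Agent.Lib.P062.Final
import Vale.Agent.Lib.P062.FullData

/-- Maker has a winning strategy in the achievement game for Snaky on the initially empty board
`ℤ²`, with no handicap: Maker forces a win within a finite number of moves. -/
theorem Vale.Agent.Results.P062.A0_full.result :
    ∃ n : ℕ, Vale.Agent.Lib.P062.MakerForces n ∅ ∅ :=
  Vale.Agent.Lib.P062.maker_wins_of_run Vale.Agent.Lib.P062.full_ok
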