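import Vale.Agent.Lib.P062.Main

/-- After Maker's first stone at the origin, every reply of Breaker that does not share an edge
with that stone loses: Maker then forces a win within a uniform number of moves. -/
theorem Vale.Agent.Results.P062.A_nonadjacent.result :
    ∃ n : ℕ, ∀ y : Vale.Agent.Lib.P062.Cell, y ≠ (0, 0) → y ≠ (1, 0) → y ≠ (-1, 0) → y ≠ (0, 1) →
      y ≠ (0, -1) → Vale.Agent.Lib.P062.MakerForces n {((0 : ℤ), (0 : ℤ))} {y} :=
  Vale.Agent.Lib.P062.replies_main
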